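import Vale.Agent.P088.R2.H747.S.Zn
import Vale.Agent.P088.R2.H338.E.Pay

/-!
# P088, stage 3: payments at the flat pass (the layers `P1`, `P2`, `rp`)

`K` is the lateral stiffness `L G / r`, `F = |W_x|²`, `F' = |W_y|²`. On the layer `P1` the
derivatives of the cut-off satisfy `|D χ|² ≤ β (K² / F + 1)`, `β` small (logarithmic cut), and
`M₁ K ≤ F ≤ M₂ K`, `F' ~ G²`. The payers: the flat pass (`MP`), zone A (`MA`), the tube (`MT`).
-/

open MeasureTheory Set Filter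
open scoped ContDiff Topology

noncomputable section

namespace Vale.Agent.P088.R2.H710.E

open Vale.Agent.P088.R2.H961.GW Vale.Agent.P088.R2.H960.W Vale.Agent.P088.R2.H644
open Vale.Agent.P088.R2.H551.E Vale.Agent.P088.R2.H747.SW

variable {E ι : Type*} [NormedAddCommGroup E] [NormedSpace ℝ E] [Fintype ι]

/-- A payer: the margin `M` contains `u₁ |X a|² + u₂ |X b|² + y₁ a² + y₂ b²` at `z`. -/
structure Py (M : Q8 E) (u₁ u₂ y₁ y₂ : ℝ) (z : E) : Prop where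
  κ : 0 ≤ M.κ z
  ζ₁ : u₁ ≤ M.ζ₁ z
  ζ₂ : u₂ ≤ M.ζ₂ z
  ζy : 0 ≤ M.ζy z
  w₁ : y₁ ≤ M.w₁ z
  w₂ : y₂ ≤ M.w₂ z
  wb : 0 ≤ M.wb z
  wc : 0 ≤ M.wc z

/-- Bounds in one slot at one point: `|D χ|² ≤ B`, `|D W|² ≤ 2 F`. -/
structure Bs (σ : Sl E ι) (W χ : E → ℝ) (B : ℝ) (z : E) : Prop where
  d : ∑ i, σ.D i χ z ^ 2 ≤ B
  g : σ.Γ χ χ z ≤ 2 * B
  w : ∑ i, σ.D i W z ^ 2 ≤ 2 * σ.F W z

omit [NormedAddCommGroup E] [NormedSpace ℝ E] [Fintype ι] in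
theorem rh_one {m : E → ℝ} {z : E} (h : 0 ≤ m z) : rh m z ≤ 1 := by
  unfold rh
  rw [div_le_one (by linarith)]
  linarith

/-- **The cost of zone A**, with `m / (2 + m) ≤ 1`. -/
theorem coA_le1 {σ τ : Sl E ι} {W m χ : E → ℝ} {q η B B' u₁ u₂ y₁ y₂ : ℝ} {M : Q8 E} {z : E}
    (hq : 0 ≤ q) (hη : 0 < η) (hm : 0 ≤ m z) (b₁ : Bs σ W χ B z) (b₂ : Bs τ W χ B' z)
    (n1 : q * (32 * η * B) ≤ u₁) (n2 : q * (32 * η * B') ≤ u₂)
    (n3 : q * (6 / η * (m z * B) + 288 * η * (B * σ.F W z)) ≤ y₁)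
    (n4 : q * (6 / η * (m z * B') + 288 * η * (B' * τ.F W z)) ≤ y₂)
    (p : Py M u₁ u₂ y₁ y₂ z) : Q8.Le ((coA σ τ W m χ η).sm fun _ => q) M z := by
  have hr0 := rh_nonneg hm
  have hr1 := rh_one hm
  have sD₁ : 0 ≤ ∑ i, σ.D i χ z ^ 2 := Finset.sum_nonneg fun _ _ => sq_nonneg _
  have sD₂ : 0 ≤ ∑ i, τ.D i χ z ^ 2 := Finset.sum_nonneg fun _ _ => sq_nonneg _
  have sW₁ : 0 ≤ ∑ i, σ.D i W z ^ 2 := Finset.sum_nonneg fun _ _ => sq_nonneg _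
  have sW₂ : 0 ≤ ∑ i, τ.D i W z ^ 2 := Finset.sum_nonneg fun _ _ => sq_nonneg _
  have key1 : ∀ S b : ℝ, 0 ≤ S → S ≤ b → q * (32 * η * (rh m z * S)) ≤ q * (32 * η * b) := by
    intro S b h0 h1
    have h2 : rh m z * S ≤ 1 * b := mul_le_mul hr1 h1 h0 zero_le_one
    rw [one_mul] at h2
    gcongr
  have key2 : ∀ S Gm w b Z : ℝ, 0 ≤ S → S ≤ b → Gm ≤ 2 * b → 0 ≤ w → w ≤ 2 * Z →
      q * (3 / η * (m z * Gm) + 144 * η * (rh m z * S * w)) ≤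
        q * (6 / η * (m z * b) + 288 * η * (b * Z)) := by
    intro S Gm w b Z h0 h1 h2 h3 h4
    have hb : 0 ≤ b := h0.trans h1
    have e1 : m z * Gm ≤ m z * (2 * b) := mul_le_mul_of_nonneg_left h2 hm
    have e2 : rh m z * S * w ≤ 1 * b * (2 * Z) :=
      mul_le_mul (mul_le_mul hr1 h1 h0 zero_le_one) h4 h3 (by positivity)
    calc q * (3 / η * (m z * Gm) + 144 * η * (rh m z * S * w))
        ≤ q * (3 / η * (m z * (2 * b)) + 144 * η * (1 * b * (2 * Z))) := by gcongr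
      _ = q * (6 / η * (m z * b) + 288 * η * (b * Z)) := by ring
  refine ⟨?_, ?_, ?_, ?_, ?_, ?_, ?_, ?_⟩
  · simpa [Q8.sm, coA] using p.κ
  · simp only [Q8.sm, coA, Pi.mul_apply]
    exact ((key1 _ _ sD₁ b₁.d).trans n1).trans p.ζ₁
  · simp only [Q8.sm, coA, Pi.mul_apply]
    exact ((key1 _ _ sD₂ b₂.d).trans n2).trans p.ζ₂
  · simpa [Q8.sm, coA] using p.ζy
  · simp only [Q8.sm, coA, Pi.mul_apply]
    exact ((key2 _ _ _ _ _ sD₁ b₁.d b₁.g sW₁ b₁.w).trans n3).trans p.w₁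
  · simp only [Q8.sm, coA, Pi.mul_apply]
    exact ((key2 _ _ _ _ _ sD₂ b₂.d b₂.g sW₂ b₂.w).trans n4).trans p.w₂
  · simpa [Q8.sm, coA] using p.wb
  · simpa [Q8.sm, coA] using p.wc

/-! ## The payers -/

/-- Zone A. -/
theorem py_MA {σ τ : Sl E ι} {W m : E → ℝ} {κ₀ : ℝ} {z : E} (hκ : κ₀ ≤ 1) :
    Py (MA σ τ W m κ₀) (m z) (m z) (1 / 3 * (m z * σ.F W z)) (1 / 3 * (m z * τ.F W z)) z where
  κ := by simpa [MA] using hκ
  ζ₁ := by simp [MA]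
  ζ₂ := by simp [MA]
  ζy := by simp [MA]
  w₁ := by simp [MA]
  w₂ := by simp [MA]
  wb := by simp [MA]
  wc := by simp [MA]

/-- The margin of the flat pass in the first variable: `κ, c K, c G, c K², c G³`. -/
def MP (K G : E → ℝ) (k c : ℝ) : Q8 E where
  κ _ := k
  ζ₁ z := c * K z
  ζ₂ z := c * G z
  ζy _ := 0
  w₁ z := c * K z ^ 2
  w₂ z := c * G z ^ 3
  wb _ := 0
  wc _ := 0

omit [NormedAddCommGroup E] [NormedSpace ℝ E] in
theorem py_MP {K G : E → ℝ} {k c : ℝ} {z : E} (hk : 0 ≤ k) :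
    Py (MP K G k c) (c * K z) (c * G z) (c * K z ^ 2) (c * G z ^ 3) z where
  κ := by simpa [MP] using hk
  ζ₁ := by simp [MP]
  ζ₂ := by simp [MP]
  ζy := by simp [MP]
  w₁ := by simp [MP]
  w₂ := by simp [MP]
  wb := by simp [MP]
  wc := by simp [MP]

omit [NormedAddCommGroup E] [NormedSpace ℝ E] in
theorem Py.mono {M : Q8 E} {u₁ u₂ y₁ y₂ u₁' u₂' y₁' y₂' : ℝ} {z : E} (p : Py M u₁ u₂ y₁ y₂ z)
    (h1 : u₁' ≤ u₁) (h2 : u₂' ≤ u₂) (h3 : y₁' ≤ y₁) (h4 : y₂' ≤ y₂) : Py M u₁' u₂' y₁' y₂' z :=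
  ⟨p.κ, h1.trans p.ζ₁, h2.trans p.ζ₂, p.ζy, h3.trans p.w₁, h4.trans p.w₂, p.wb, p.wc⟩

/-! ## The layer `P1` -/

/-- The numbers on the layer `P1` (flat pass in the first variable). -/
structure L1n (c C M₁ M₂ K G m F F' : ℝ) : Prop where
  c0 : 0 < c
  c1 : c ≤ 1
  C1 : 1 ≤ C
  M1 : 1 ≤ M₁
  K1 : 1 ≤ K
  KM : M₂ ≤ K
  KG : K ≤ G
  m0 : c * K ≤ m
  m1 : m ≤ C * K
  F0 : M₁ * K ≤ F
  F1 : F ≤ M₂ * K
  G0 : c * G ^ 2 ≤ F'
  G1 : F' ≤ C * G ^ 2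

/-- `|D χ|² ≤ β (K² / F + 1) ≤ 2 β K` on the layer. -/
theorem L1n.b {c C M₁ M₂ K G m F F' β : ℝ} (h : L1n c C M₁ M₂ K G m F F') (hβ : 0 ≤ β) :
    β * (K ^ 2 / F + 1) ≤ 2 * β * K ∧ β * (K ^ 2 / F + 1) * F ≤ 2 * β * K ^ 2 := by
  obtain ⟨c0, c1, C1, M1, K1, KM, KG, m0, m1, F0, F1, G0, G1⟩ := h
  have hF : 0 < F := lt_of_lt_of_le (by positivity) F0
  have h1 : K ^ 2 / F ≤ K := by
    rw [div_le_iff₀ hF]
    have : K * K ≤ K * F := mul_le_mul_of_nonneg_left (by nlinarith) (by linarith)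
    nlinarith
  have e1 : (K ^ 2 / F + 1) * F = K ^ 2 + F := by field_simp
  have h2 : F ≤ K ^ 2 := F1.trans (by nlinarith)
  constructor
  · calc β * (K ^ 2 / F + 1) ≤ β * (K + K) := by gcongr
      _ = 2 * β * K := by ring
  · rw [mul_assoc, e1]
    calc β * (K ^ 2 + F) ≤ β * (K ^ 2 + K ^ 2) := by gcongr
      _ = 2 * β * K ^ 2 := by ring

/-- **The layer `P1`**: the cost of zone A is paid by every payer with
`u₁ ≥ c K`, `u₂ ≥ c K`, `y₁ ≥ c K²`, `y₂ ≥ c K G²`. -/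
theorem pay_P1 {σ τ : Sl E ι} {W m χ : E → ℝ} {q η β c C M₁ M₂ K G B B' : ℝ} {M : Q8 E} {z : E}
    (hq : 0 < q) (hη : 0 < η) (hη1 : η ≤ 1) (hβ : 0 ≤ β)
    (s4 : q * β * (1152 * C) ≤ c * η)
    (h : L1n c C M₁ M₂ K G (m z) (σ.F W z) (τ.F W z))
    (b₁ : Bs σ W χ B z) (b₂ : Bs τ W χ B' z) (hB : B ≤ β * (K ^ 2 / σ.F W z + 1))
    (hB' : B' ≤ β * (K ^ 2 / σ.F W z + 1))
    (p : Py M (c * K) (c * K) (c * K ^ 2) (c * K * G ^ 2) z) :
    Q8.Le ((coA σ τ W m χ η).sm fun _ => q) M z := by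
  obtain ⟨h1, h2⟩ := h.b hβ
  obtain ⟨c0, c1, C1, M1, K1, KM, KG, m0, m1, F0, F1, G0, G1⟩ := h
  have hF : 0 < σ.F W z := lt_of_lt_of_le (by positivity) F0
  have hK0 : 0 < K := by linarith
  have hm : 0 ≤ m z := le_trans (by positivity) m0
  have hB0 : 0 ≤ B := (Finset.sum_nonneg fun _ _ => sq_nonneg _).trans b₁.d
  have hB0' : 0 ≤ B' := (Finset.sum_nonneg fun _ _ => sq_nonneg _).trans b₂.d
  have k1 : B ≤ 2 * β * K := hB.trans h1
  have k2 : B' ≤ 2 * β * K := hB'.trans h1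
  have k3 : B * σ.F W z ≤ 2 * β * K ^ 2 := (mul_le_mul_of_nonneg_right hB hF.le).trans h2
  have hqb : 0 ≤ q * β := by positivity
  have s2 : q * β * 64 ≤ c * η := by
    refine le_trans ?_ s4
    exact mul_le_mul_of_nonneg_left (by linarith) hqb
  have s3 : q * β * (24 * C) ≤ c * η := by
    refine le_trans ?_ s4
    exact mul_le_mul_of_nonneg_left (by linarith) hqb
  have cη : c * η ≤ c := mul_le_of_le_one_right c0.le hη1
  refine coA_le1 hq.le hη hm b₁ b₂ ?_ ?_ ?_ ?_ p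
  · calc q * (32 * η * B) ≤ q * (32 * 1 * (2 * β * K)) := by gcongr
      _ = q * β * 64 * K := by ring
      _ ≤ c * K := by
        refine mul_le_mul_of_nonneg_right (s2.trans cη) (by linarith)
  · calc q * (32 * η * B') ≤ q * (32 * 1 * (2 * β * K)) := by gcongr
      _ = q * β * 64 * K := by ring
      _ ≤ c * K := mul_le_mul_of_nonneg_right (s2.trans cη) (by linarith)
  · have e1 : q * (6 / η * (m z * B)) ≤ 1 / 2 * (c * K ^ 2) := by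
      calc q * (6 / η * (m z * B)) ≤ q * (6 / η * (C * K * (2 * β * K))) := by gcongr
        _ = (q * β * (24 * C)) * K ^ 2 / (2 * η) := by ring
        _ ≤ (c * η) * K ^ 2 / (2 * η) := by gcongr
        _ = 1 / 2 * (c * K ^ 2) := by field_simp
    have e2 : q * (288 * η * (B * σ.F W z)) ≤ 1 / 2 * (c * K ^ 2) := by
      calc q * (288 * η * (B * σ.F W z)) ≤ q * (288 * 1 * (2 * β * K ^ 2)) := by gcongr
        _ = (q * β * (1152 * 1)) * K ^ 2 / 2 := by ring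
        _ ≤ (q * β * (1152 * C)) * K ^ 2 / 2 := by gcongr
        _ ≤ c * K ^ 2 / 2 := by
          have := s4.trans cη
          gcongr
        _ = 1 / 2 * (c * K ^ 2) := by ring
    rw [mul_add]
    linarith
  · have hK2 : K ^ 2 ≤ K * G ^ 2 := by
      have h5 : K ≤ G ^ 2 := by
        calc K = K * 1 := (mul_one K).symm
          _ ≤ G * G := mul_le_mul KG (K1.trans KG) zero_le_one (hK0.le.trans KG)
          _ = G ^ 2 := (sq G).symm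
      calc K ^ 2 = K * K := sq K
        _ ≤ K * G ^ 2 := mul_le_mul_of_nonneg_left h5 hK0.le
    have e1 : q * (6 / η * (m z * B')) ≤ 1 / 2 * (c * K * G ^ 2) := by
      calc q * (6 / η * (m z * B')) ≤ q * (6 / η * (C * K * (2 * β * K))) := by gcongr
        _ = (q * β * (24 * C)) * K ^ 2 / (2 * η) := by ring
        _ ≤ (c * η) * K ^ 2 / (2 * η) := by gcongr
        _ = 1 / 2 * (c * K ^ 2) := by field_simp
        _ ≤ 1 / 2 * (c * (K * G ^ 2)) := by gcongr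
        _ = 1 / 2 * (c * K * G ^ 2) := by ring
    have e2 : q * (288 * η * (B' * τ.F W z)) ≤ 1 / 2 * (c * K * G ^ 2) := by
      calc q * (288 * η * (B' * τ.F W z)) ≤ q * (288 * 1 * (2 * β * K * (C * G ^ 2))) := by
            have : 0 ≤ τ.F W z := le_trans (by positivity) G0
            gcongr
        _ = (q * β * (1152 * C)) * (K * G ^ 2) / 2 := by ring
        _ ≤ c * (K * G ^ 2) / 2 := by
          have := s4.trans cη
          gcongr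
        _ = 1 / 2 * (c * K * G ^ 2) := by ring
    rw [mul_add]
    linarith

end Vale.Agent.P088.R2.H710.E
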