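import Vale.Agent.P088.R2.H747.S.Zn

/-!
# P088, stage 3: the cut variable `log (F / K)`, `F = Γ(W, W)`
-/

open Set Filter
open scoped ContDiff Topology

noncomputable section

namespace Vale.Agent.P088.R2.H710.E

open Vale.Agent.P088.R2.H961.GW Vale.Agent.P088.R2.H644 Vale.Agent.P088.R2.H960.W
  Vale.Agent.P088.R2.H747.SW

variable {E ι : Type*} [NormedAddCommGroup E] [NormedSpace ℝ E] [Fintype ι]

/-- `(∑ |w_i|)² ≤ n ∑ w_i²`. -/
theorem sum_abs_sq (w : ι → ℝ) : (∑ i, |w i|) ^ 2 ≤ Fintype.card ι * ∑ i, w i ^ 2 := by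
  have h := sq_sum_le_card_mul_sum_sq (s := (Finset.univ : Finset ι)) (f := fun i => |w i|)
  simpa only [sq_abs, Finset.card_univ] using h

variable {σ : Sl E ι} {U : Set E} {θ : E → ℝ} {W K : E → ℝ} {z v : E}

/-- The derivative of `F` in a direction. -/
theorem fd_F (ok : σ.Ok U θ) (hW : Sm U W) (hz : z ∈ U) (v : E) :
    fderiv ℝ (σ.F W) z v = ∑ i, ∑ j, (fderiv ℝ (σ.s i j) z v * (σ.D i W z * σ.D j W z) +
      σ.s i j z * (fderiv ℝ (σ.D i W) z v * σ.D j W z + σ.D i W z * fderiv ℝ (σ.D j W) z v)) := by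
  have hU := ok.op
  have e0 : σ.F W = fun z => ∑ i, ∑ j, σ.s i j z * σ.D i W z * σ.D j W z := rfl
  have sD := fun i => ok.sD hW i
  have s1 : ∀ i j, Sm U fun z => σ.s i j z * σ.D i W z * σ.D j W z := fun i j =>
    ((ok.ss i j).mul (sD i)).mul (sD j)
  rw [e0, fderiv_fun_sum fun i _ => (Sm.sum Finset.univ fun j _ => s1 i j).diff hU hz]
  rw [_root_.sum_apply]
  refine Finset.sum_congr rfl fun i _ => ?_
  rw [fderiv_fun_sum fun j _ => (s1 i j).diff hU hz, _root_.sum_apply]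
  refine Finset.sum_congr rfl fun j _ => ?_
  have s2 : Sm U fun z => σ.s i j z * σ.D i W z := (ok.ss i j).mul (sD i)
  rw [fderiv_fun_mul (s2.diff hU hz) ((sD j).diff hU hz),
    fderiv_fun_mul ((ok.ss i j).diff hU hz) ((sD i).diff hU hz)]
  simp only [_root_.add_apply, _root_.smul_apply, smul_eq_mul]
  ring

/-- The bound for the derivative of `F`. -/
theorem fd_F_le (ok : σ.Ok U θ) (hW : Sm U W) (hz : z ∈ U) {δ H : ℝ} (hδ : 0 ≤ δ) (hH : 0 ≤ H)
    (lo : ∑ i, σ.D i W z ^ 2 ≤ 2 * σ.F W z) (sb : ∀ i j, |σ.s i j z| ≤ 2)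
    (ds : ∀ i j, |fderiv ℝ (σ.s i j) z v| ≤ δ) (dH : ∀ j, |fderiv ℝ (σ.D j W) z v| ≤ H) :
    |fderiv ℝ (σ.F W) z v| ≤
      6 * (Fintype.card ι : ℝ) ^ 2 * (δ * σ.F W z + H * √(σ.F W z)) := by
  rcases isEmpty_or_nonempty ι with hι | hι
  · rw [fd_F ok hW hz]
    simp
  set n : ℝ := (Fintype.card ι : ℝ) with hn
  have hn1 : 1 ≤ n := by
    rw [hn]
    exact_mod_cast Fintype.card_pos
  set w : ι → ℝ := fun i => σ.D i W z with hw
  set S : ℝ := ∑ i, |w i| with hS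
  have hS0 : 0 ≤ S := Finset.sum_nonneg fun _ _ => abs_nonneg _
  have hF0 : 0 ≤ σ.F W z := by
    have : 0 ≤ ∑ i, σ.D i W z ^ 2 := Finset.sum_nonneg fun _ _ => sq_nonneg _
    linarith
  have hSF : S ^ 2 ≤ 2 * n * σ.F W z := by
    have h1 := sum_abs_sq w
    have h2 : n * ∑ i, w i ^ 2 ≤ n * (2 * σ.F W z) := mul_le_mul_of_nonneg_left lo (by linarith)
    linarith
  have hSr : S ≤ √2 * n * √(σ.F W z) := by
    have h1 : S ^ 2 ≤ (√2 * n * √(σ.F W z)) ^ 2 := by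
      rw [mul_pow, mul_pow, Real.sq_sqrt hF0, Real.sq_sqrt (by norm_num : (0 : ℝ) ≤ 2)]
      refine hSF.trans ?_
      have h3 : n ≤ n ^ 2 := by nlinarith
      have h4 := mul_le_mul_of_nonneg_right h3 hF0
      nlinarith
    exact (abs_le_of_sq_le_sq' h1 (by positivity)).2
  have h2r : √2 ≤ 3 / 2 := by
    rw [Real.sqrt_le_left (by norm_num)]
    norm_num
  rw [fd_F ok hW hz]
  calc |∑ i, ∑ j, (fderiv ℝ (σ.s i j) z v * (σ.D i W z * σ.D j W z) +
      σ.s i j z * (fderiv ℝ (σ.D i W) z v * σ.D j W z + σ.D i W z * fderiv ℝ (σ.D j W) z v))|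
      ≤ ∑ i, ∑ j, (δ * (|w i| * |w j|) + 2 * (H * |w j| + |w i| * H)) := by
        refine (Finset.abs_sum_le_sum_abs _ _).trans (Finset.sum_le_sum fun i _ => ?_)
        refine (Finset.abs_sum_le_sum_abs _ _).trans (Finset.sum_le_sum fun j _ => ?_)
        refine (abs_add_le _ _).trans (add_le_add ?_ ?_)
        · rw [abs_mul, abs_mul]
          exact mul_le_mul_of_nonneg_right (ds i j) (by positivity)
        · rw [abs_mul]
          refine mul_le_mul (sb i j) ((abs_add_le _ _).trans ?_) (abs_nonneg _) (by norm_num)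
          rw [abs_mul, abs_mul]
          exact add_le_add (mul_le_mul_of_nonneg_right (dH i) (abs_nonneg _))
            (mul_le_mul_of_nonneg_left (dH j) (abs_nonneg _))
    _ = δ * S ^ 2 + 4 * n * H * S := by
        simp only [Finset.sum_add_distrib, ← Finset.mul_sum, ← Finset.sum_mul, Finset.sum_const,
          Finset.card_univ, nsmul_eq_mul, ← hS, ← hn]
        ring
    _ ≤ 6 * n ^ 2 * (δ * σ.F W z + H * √(σ.F W z)) := by
        have k1 : δ * S ^ 2 ≤ δ * (2 * n * σ.F W z) := mul_le_mul_of_nonneg_left hSF hδ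
        have k2 : 4 * n * H * S ≤ 4 * n * H * (√2 * n * √(σ.F W z)) :=
          mul_le_mul_of_nonneg_left hSr (by positivity)
        have k3 : 4 * n * H * (√2 * n * √(σ.F W z)) ≤ 6 * n ^ 2 * (H * √(σ.F W z)) := by
          have k4 : 0 ≤ n ^ 2 * (H * √(σ.F W z)) := by positivity
          have k5 := mul_le_mul_of_nonneg_right h2r k4
          nlinarith
        have k6 : δ * (2 * n * σ.F W z) ≤ 6 * n ^ 2 * (δ * σ.F W z) := by
          have k7 : 0 ≤ δ * σ.F W z := mul_nonneg hδ hF0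
          have k8 : 2 * n ≤ 6 * n ^ 2 := by nlinarith
          have k9 := mul_le_mul_of_nonneg_right k8 k7
          nlinarith
        linarith

/-- **The cut variable `log (F / K)`.** -/
theorem fd_logFK (ok : σ.Ok U θ) (hW : Sm U W) (hz : z ∈ U) {δ H κ : ℝ} (hδ : 0 ≤ δ) (hH : 0 ≤ H)
    (lo : ∑ i, σ.D i W z ^ 2 ≤ 2 * σ.F W z) (sb : ∀ i j, |σ.s i j z| ≤ 2)
    (ds : ∀ i j, |fderiv ℝ (σ.s i j) z v| ≤ δ) (dH : ∀ j, |fderiv ℝ (σ.D j W) z v| ≤ H)
    (hF : 0 < σ.F W z) (hK : 0 < K z) (dK : DifferentiableAt ℝ K z)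
    (hκ : |fderiv ℝ K z v| ≤ κ * K z) :
    |fderiv ℝ (fun z => Real.log (σ.F W z / K z)) z v| ≤
      6 * (Fintype.card ι : ℝ) ^ 2 * (δ + H / √(σ.F W z)) + κ := by
  have dF : DifferentiableAt ℝ (σ.F W) z := (ok.sF hW).diff ok.op hz
  have h1 : HasFDerivAt (fun z => Real.log (σ.F W z) - Real.log (K z))
      ((σ.F W z)⁻¹ • fderiv ℝ (σ.F W) z - (K z)⁻¹ • fderiv ℝ K z) z :=
    (dF.hasFDerivAt.log hF.ne').fun_sub (dK.hasFDerivAt.log hK.ne')
  have h2 : (fun z => Real.log (σ.F W z / K z)) =ᶠ[𝓝 z]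
      fun z => Real.log (σ.F W z) - Real.log (K z) := by
    filter_upwards [dF.continuousAt.eventually (lt_mem_nhds hF),
      dK.continuousAt.eventually (lt_mem_nhds hK)] with y k1 k2
    exact Real.log_div k1.ne' k2.ne'
  rw [h2.fderiv_eq, h1.fderiv]
  simp only [_root_.smul_apply, _root_.sub_apply, smul_eq_mul]
  rw [inv_mul_eq_div, inv_mul_eq_div]
  refine (abs_sub _ _).trans (add_le_add ?_ ?_)
  · rw [abs_div, abs_of_pos hF, div_le_iff₀ hF]
    refine (fd_F_le ok hW hz hδ hH lo sb ds dH).trans (le_of_eq ?_)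
    have hs : √(σ.F W z) * √(σ.F W z) = σ.F W z := Real.mul_self_sqrt hF.le
    have hs0 : 0 < √(σ.F W z) := Real.sqrt_pos.2 hF
    have e2 : H / √(σ.F W z) * σ.F W z = H * √(σ.F W z) := by
      rw [div_mul_eq_mul_div, div_eq_iff hs0.ne', mul_assoc, hs]
    rw [mul_assoc (6 * (Fintype.card ι : ℝ) ^ 2), add_mul, e2]
  · rw [abs_div, abs_of_pos hK, div_le_iff₀ hK]
    exact hκ

end Vale.Agent.P088.R2.H710.E
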