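import Vale.Agent.P088.R2.H509.E.PT
import Vale.Agent.P088.R2.H808.E.PF
import Vale.Agent.P088.R2.H660.P.Let

/-!
# P088, stage 3: the pair payments at the flat pass (layers `P1`, `P2`, `rp`)

`MP`, `coP` (helper660): margin and cost of the flat pass; `MT1`, `coT1`: tubes; `MA`, `coA`: zone A.
-/

open MeasureTheory Set Filter
open scoped ContDiff Topology

noncomputable section

namespace Vale.Agent.P088.R2.H710.PR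

open Vale.Agent.P088.R2.H961.GW Vale.Agent.P088.R2.H960.W Vale.Agent.P088.R2.H644
open Vale.Agent.P088.R2.H551.E Vale.Agent.P088.R2.H338.E Vale.Agent.P088.R2.H747.SW
open Vale.Agent.P088.R2.H509.PT Vale.Agent.P088.R2.H660.P

variable {E ι : Type*} [NormedAddCommGroup E] [NormedSpace ℝ E] [Fintype ι]
  {σ τ : Sl E ι} {v₁ v₂ W G om a b m χ : E → ℝ} {z : E}
  {c C N q η B κ₀ ρ₁ g f : ℝ}

/-- The numbers of a point of the flat pass: `G ≥ g N`, `F' ≥ f N²`. -/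
theorem big_P (hρ : 0 ≤ ρ₁) (hg : 0 ≤ g) (hf : 0 ≤ f) (hN : 0 ≤ N)
    (hG : g * N ≤ G z) (hF : 0 ≤ σ.F W z) (hF' : f * N ^ 2 ≤ τ.F W z)
    (h1 : c ≤ ρ₁ * g) (h2 : c ≤ ρ₁ * g ^ 2) (h3 : c ≤ ρ₁ * (g * f)) :
    Big (MP σ τ W G ρ₁) (1 / 4) c N (N ^ 2) (N ^ 3) z := by
  have G0 : 0 ≤ G z := (by positivity : 0 ≤ g * N).trans hG
  have k1 : c * N ≤ ρ₁ * G z := by
    calc c * N ≤ ρ₁ * g * N := mul_le_mul_of_nonneg_right h1 hN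
      _ = ρ₁ * (g * N) := by ring
      _ ≤ ρ₁ * G z := mul_le_mul_of_nonneg_left hG hρ
  refine ⟨le_rfl, k1, k1, le_rfl, ?_, ?_, le_rfl, le_rfl⟩
  · show c * N ^ 2 ≤ ρ₁ * (G z * (G z + σ.F W z))
    calc c * N ^ 2 ≤ ρ₁ * g ^ 2 * N ^ 2 := mul_le_mul_of_nonneg_right h2 (sq_nonneg _)
      _ = ρ₁ * ((g * N) * (g * N)) := by ring
      _ ≤ ρ₁ * (G z * (G z + σ.F W z)) := by
        refine mul_le_mul_of_nonneg_left ?_ hρ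
        exact mul_le_mul hG (hG.trans (by linarith)) (by positivity) G0
  · show c * N ^ 3 ≤ ρ₁ * (G z * τ.F W z)
    calc c * N ^ 3 ≤ ρ₁ * (g * f) * N ^ 3 := mul_le_mul_of_nonneg_right h3 (by positivity)
      _ = ρ₁ * ((g * N) * (f * N ^ 2)) := by ring
      _ ≤ ρ₁ * (G z * τ.F W z) := by
        refine mul_le_mul_of_nonneg_left ?_ hρ
        exact mul_le_mul hG hF' (by positivity) G0

theorem big_Pm (hρ : 0 ≤ ρ₁) (hg : 0 ≤ g) (hf : 0 ≤ f) (hN : 0 ≤ N)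
    (hG : g * N ≤ G z) (hF : f * N ^ 2 ≤ σ.F W z) (hF' : 0 ≤ τ.F W z)
    (h1 : c ≤ ρ₁ * g) (h2 : c ≤ ρ₁ * g ^ 2) (h3 : c ≤ ρ₁ * (g * f)) :
    Big (MPm σ τ W G ρ₁) (1 / 4) c N (N ^ 3) (N ^ 2) z := by
  have h := big_P (σ := τ) (τ := σ) hρ hg hf hN hG hF' hF h1 h2 h3
  exact ⟨h.κ, h.ζ₁, h.ζ₂, h.ζy, h.w₂, h.w₁, h.wb, h.wc⟩

/-! ## The cost of the flat pass -/

/-- Against the margin of the flat pass. -/
theorem coP_P (hG : 0 ≤ G z) (hF : 0 ≤ σ.F W z) (hF' : 0 ≤ τ.F W z)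
    (h : q * (C * om z) ≤ ρ₁ * G z) :
    q * (coP σ τ W G om C).dens σ τ v₁ v₂ W a b z ≤ (MP σ τ W G ρ₁).dens σ τ v₁ v₂ W a b z := by
  refine dens_mul_le ?_ ?_ ?_ ?_ ?_ ?_ ?_ ?_
  · show q * 0 ≤ 1 / 4
    rw [mul_zero]; norm_num
  · exact h
  · exact h
  · show q * 0 ≤ 0
    rw [mul_zero]
  · show q * (C * (om z * (G z + σ.F W z))) ≤ ρ₁ * (G z * (G z + σ.F W z))
    have := mul_le_mul_of_nonneg_right h (add_nonneg hG hF)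
    nlinarith [this]
  · show q * (C * (om z * τ.F W z)) ≤ ρ₁ * (G z * τ.F W z)
    have := mul_le_mul_of_nonneg_right h hF'
    nlinarith [this]
  · show q * 0 ≤ 0
    rw [mul_zero]
  · show q * 0 ≤ 0
    rw [mul_zero]

/-- Against zone A. -/
theorem coP_A (hκ : κ₀ ≤ 1) (hm : 0 ≤ m z) (hF : 0 ≤ σ.F W z) (hF' : 0 ≤ τ.F W z)
    (hGF : G z ≤ σ.F W z) (h0 : 0 ≤ q * (C * om z)) (h : 6 * (q * (C * om z)) ≤ m z) :
    q * (coP σ τ W G om C).dens σ τ v₁ v₂ W a b z ≤ (MA σ τ W m κ₀).dens σ τ v₁ v₂ W a b z := by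
  refine dens_mul_le ?_ ?_ ?_ ?_ ?_ ?_ ?_ ?_
  · show q * 0 ≤ 1 - κ₀
    rw [mul_zero]; linarith
  · show q * (C * om z) ≤ m z
    linarith
  · show q * (C * om z) ≤ m z
    linarith
  · show q * 0 ≤ 0
    rw [mul_zero]
  · show q * (C * (om z * (G z + σ.F W z))) ≤ 1 / 3 * (m z * σ.F W z)
    have k1 := mul_le_mul_of_nonneg_left (show G z + σ.F W z ≤ 2 * σ.F W z by linarith) h0
    have k2 := mul_le_mul_of_nonneg_right h hF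
    nlinarith [k1, k2]
  · show q * (C * (om z * τ.F W z)) ≤ 1 / 3 * (m z * τ.F W z)
    have k2 := mul_le_mul_of_nonneg_right h hF'
    have k3 := mul_nonneg h0 hF'
    nlinarith [k2, k3]
  · show q * 0 ≤ 0
    rw [mul_zero]
  · show q * 0 ≤ 0
    rw [mul_zero]

/-- Against any zone with large margin: `om ≤ B₀`, `G ≤ C₁ N`, `F ≤ φ N²`, `F' ≤ C₂ N²`. -/
theorem coP_big {M : Q8 E} {κ₁ B₀ C₁ C₂ φ a₁ a₂ : ℝ} (h : Big M κ₁ c N a₁ a₂ z) (hq : 0 ≤ q)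
    (hC : 0 ≤ C) (hκ : 0 ≤ κ₁) (hom : 0 ≤ om z) (homB : om z ≤ B₀) (hG0 : 0 ≤ G z)
    (hG : G z ≤ C₁ * N) (hF0 : 0 ≤ σ.F W z)
    (hF : σ.F W z ≤ φ * N ^ 2) (hF0' : 0 ≤ τ.F W z) (hF' : τ.F W z ≤ C₂ * N ^ 2)
    (h1 : q * (C * B₀) ≤ c * N)
    (h2 : q * (C * B₀) * (C₁ * N + φ * N ^ 2) ≤ c * a₁)
    (h3 : q * (C * B₀) * (C₂ * N ^ 2) ≤ c * a₂) :
    q * (coP σ τ W G om C).dens σ τ v₁ v₂ W a b z ≤ M.dens σ τ v₁ v₂ W a b z := by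
  have e0 : C * om z ≤ C * B₀ := mul_le_mul_of_nonneg_left homB hC
  have e0' : 0 ≤ C * om z := mul_nonneg hC hom
  have e1 : q * (C * om z) ≤ q * (C * B₀) := mul_le_mul_of_nonneg_left e0 hq
  have e2 : 0 ≤ q * (C * om z) := mul_nonneg hq e0'
  refine dens_mul_le ?_ ?_ ?_ ?_ ?_ ?_ ?_ ?_
  · show q * 0 ≤ _
    rw [mul_zero]
    exact hκ.trans h.κ
  · exact (e1.trans h1).trans h.ζ₁
  · exact (e1.trans h1).trans h.ζ₂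
  · show q * 0 ≤ _
    rw [mul_zero]
    exact h.ζy
  · refine le_trans ?_ (h2.trans h.w₁)
    show q * (C * (om z * (G z + σ.F W z))) ≤ _
    calc q * (C * (om z * (G z + σ.F W z))) = q * (C * om z) * (G z + σ.F W z) := by ring
      _ ≤ q * (C * B₀) * (C₁ * N + φ * N ^ 2) :=
        mul_le_mul e1 (add_le_add hG hF) (add_nonneg hG0 hF0) (e2.trans e1)
  · refine le_trans ?_ (h3.trans h.w₂)
    show q * (C * (om z * τ.F W z)) ≤ _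
    calc q * (C * (om z * τ.F W z)) = q * (C * om z) * τ.F W z := by ring
      _ ≤ q * (C * B₀) * (C₂ * N ^ 2) := mul_le_mul e1 hF' hF0' (e2.trans e1)
  · show q * 0 ≤ _
    rw [mul_zero]
    exact h.wb
  · show q * 0 ≤ _
    rw [mul_zero]
    exact h.wc

/-- The cost of the flat pass against the margin of the tube `W_x = 0` (at the layer `rp`). -/
theorem pay_P1_T1 {c : ℝ} {N : E → ℝ} {B₀ C₁ C₂ φ : ℝ} (hq : 0 ≤ q) (hC : 0 ≤ C) (hN : 0 ≤ N z)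
    (hom : 0 ≤ om z) (homB : om z ≤ B₀) (hG0 : 0 ≤ G z)
    (hG : G z ≤ C₁ * N z) (hF0 : 0 ≤ σ.F W z)
    (hF : σ.F W z ≤ φ * N z ^ 2) (hF0' : 0 ≤ τ.F W z) (hF' : τ.F W z ≤ C₂ * N z ^ 2)
    (h1 : q * (C * B₀) ≤ c * N z) (h2 : 2 * (q * (C * B₀) * φ) ≤ c)
    (h3 : 2 * (q * (C * B₀) * C₁) ≤ c * N z) (h4 : q * (C * B₀) * C₂ ≤ c * N z) :
    q * (coP σ τ W G om C).dens σ τ v₁ v₂ W a b z ≤ (MT1 c N).dens σ τ v₁ v₂ W a b z := by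
  refine coP_big (big_T1 c N z) hq hC zero_le_one hom homB hG0 hG hF0 hF hF0' hF' h1 ?_ ?_
  · have k1 := mul_le_mul_of_nonneg_right h2 (sq_nonneg (N z))
    have k2 := mul_le_mul_of_nonneg_right h3 hN
    nlinarith
  · have k1 := mul_le_mul_of_nonneg_right h4 (sq_nonneg (N z))
    nlinarith

/-! ### The mirror -/

/-- Exchange of the slots. -/
def sw (p : Q8 E) : Q8 E := ⟨p.κ, p.ζ₂, p.ζ₁, p.ζy, p.w₂, p.w₁, p.wb, p.wc⟩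

theorem dens_sw (p : Q8 E) (a b : E → ℝ) (z : E) :
    (sw p).dens σ τ v₁ v₂ W a b z = p.dens τ σ v₂ v₁ W b a z := by
  have h1 : nY σ τ W a b z = nY τ σ W b a z := by
    unfold nY
    exact Finset.sum_congr rfl fun i _ => by ring
  have h2 : sqd σ τ v₁ v₂ W a b z = sqd τ σ v₂ v₁ W b a z := by
    unfold sqd
    ring
  unfold Q8.dens sw
  rw [h1, h2]
  ring

/-- Mirror image of a payment. -/
theorem pay_sw {p M : Q8 E} (h : q * p.dens τ σ v₂ v₁ W b a z ≤ M.dens τ σ v₂ v₁ W b a z) :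
    q * (sw p).dens σ τ v₁ v₂ W a b z ≤ (sw M).dens σ τ v₁ v₂ W a b z := by
  rw [dens_sw, dens_sw]
  exact h

theorem sw_P (ρ₁ : ℝ) : sw (MP τ σ W G ρ₁) = MPm σ τ W G ρ₁ := rfl

theorem sw_coP (C : ℝ) : sw (coP τ σ W G om C) = coPm σ τ W G om C := rfl

theorem sw_A : sw (MA τ σ W m κ₀) = MA σ τ W m κ₀ := rfl

theorem sw_coA : sw (coA τ σ W m χ η) = coA σ τ W m χ η := rfl

theorem sw_T (c : ℝ) (N : E → ℝ) : sw (MT1 c N) = MT2 c N := rfl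

theorem sw_coT (C : ℝ) (N et : E → ℝ) : sw (coT1 C N et) = coT2 C N et := rfl

/-! ## All pairs at the flat pass -/

/-- The numbers: `H = N + G`; `q` the number of pairs; `C`, `ρ₁` of the pass, `G ≥ g H`,
`F' ≥ f H²` on the pass; `c_T`, `C_T` of the tubes; `N ≥ k G` on the layer `rp`; there `F ≤ φ N²`,
`|D χ|² ≤ B₀`; `c₁ H ≤ m ≤ C₁ H`, `F ≥ c₂ H²` in zone A, `|D χ|² ≤ B`, `|D W|² ≤ C₂ H²`. -/
structure NumP (q C ρ₁ g f cT CT k φ B₀ c₁ C₁ c₂ C₂ B η cP H : ℝ) : Prop where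
  H1 : 1 ≤ H
  cP0 : 0 < cP
  p1 : cP ≤ ρ₁ * g
  p2 : cP ≤ ρ₁ * g ^ 2
  p3 : cP ≤ ρ₁ * (g * f)
  /-- cost of the pass -/
  a1 : q * (C * B) ≤ ρ₁ * (g * H)
  a2 : 6 * (q * (C * B)) ≤ c₁ * H
  a3 : 1 ≤ c₂ * H
  /-- cost of the tubes against the pass -/
  b1 : q * CT ≤ 1 / 4 * √(k * H)
  b2 : q * CT ≤ cP * √(k * H)
  /-- cost of the pass against the tubes -/
  d1 : 2 * (q * (C * B₀) * φ) ≤ cT
  d2 : q * (C * B₀) ≤ cT * (k * H)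
  d3 : 2 * (q * (C * B₀) * (1 / k)) ≤ cT * (k * H)
  d4 : q * (C * B₀) * (C₂ / k ^ 2) ≤ cT * (k * H)
  /-- cost of zone A against the pass -/
  e1 : 2 * (q * (144 * η * B * C₂)) ≤ cP
  e2 : q * (32 * η * B) ≤ cP * H
  e3 : 2 * (q * (6 * C₁ * B / η)) ≤ cP * H

section all

variable {C ρ₁ g f cT CT k φ B₀ c₁ C₁ c₂ C₂ B cP H : ℝ}

theorem pay_P1_P1 (h : NumP q C ρ₁ g f cT CT k φ B₀ c₁ C₁ c₂ C₂ B η cP H) (hq : 0 ≤ q)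
    (hC : 0 ≤ C) (hρ : 0 ≤ ρ₁) (hg : 0 ≤ g) (hG : g * H ≤ G z) (hF : 0 ≤ σ.F W z)
    (hF' : 0 ≤ τ.F W z) (hom : om z ≤ B) :
    q * (coP σ τ W G om C).dens σ τ v₁ v₂ W a b z ≤ (MP σ τ W G ρ₁).dens σ τ v₁ v₂ W a b z := by
  have hH : 0 ≤ H := by linarith [h.H1]
  refine coP_P ((mul_nonneg hg hH).trans hG) hF hF' ?_
  refine (mul_le_mul_of_nonneg_left (mul_le_mul_of_nonneg_left hom hC) hq).trans (h.a1.trans ?_)
  exact mul_le_mul_of_nonneg_left hG hρ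

theorem pay_P1_A (h : NumP q C ρ₁ g f cT CT k φ B₀ c₁ C₁ c₂ C₂ B η cP H) (hq : 0 ≤ q)
    (hC : 0 ≤ C) (hκ : κ₀ ≤ 1) (hm0 : 0 ≤ m z) (hm : c₁ * H ≤ m z) (hG : G z ≤ H)
    (hF : c₂ * H ^ 2 ≤ σ.F W z) (hF' : 0 ≤ τ.F W z) (hom0 : 0 ≤ om z) (hom : om z ≤ B) :
    q * (coP σ τ W G om C).dens σ τ v₁ v₂ W a b z ≤ (MA σ τ W m κ₀).dens σ τ v₁ v₂ W a b z := by
  have hH : 0 ≤ H := by linarith [h.H1]
  have k1 := mul_le_mul_of_nonneg_right h.a3 hH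
  have k2 : G z ≤ σ.F W z := by nlinarith
  have k3 : 0 ≤ σ.F W z := le_trans (by nlinarith) hF
  refine coP_A hκ hm0 k3 hF' k2 (mul_nonneg hq (mul_nonneg hC hom0)) ?_
  have k4 := mul_le_mul_of_nonneg_left (mul_le_mul_of_nonneg_left hom hC) hq
  linarith [h.a2]

theorem pay_T1_P1 {N et : E → ℝ} (h : NumP q C ρ₁ g f cT CT k φ B₀ c₁ C₁ c₂ C₂ B η cP H)
    (hq : 0 ≤ q) (hCT : 0 ≤ CT) (hρ : 0 ≤ ρ₁) (hg : 0 ≤ g) (hf : 0 ≤ f) (hk : 0 < k)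
    (hN : k * H ≤ N z) (hNH : N z ≤ H) (hG : g * H ≤ G z) (hF : 0 ≤ σ.F W z)
    (hF' : f * H ^ 2 ≤ τ.F W z) (h0 : 0 ≤ et z) (h1 : et z ≤ 1) :
    q * (coT1 CT N et).dens σ τ v₁ v₂ W a b z ≤ (MP σ τ W G ρ₁).dens σ τ v₁ v₂ W a b z := by
  have hH : 0 < H := by linarith [h.H1]
  have hN0 : 0 < N z := lt_of_lt_of_le (by positivity) hN
  have hb := big_P (σ := σ) (τ := τ) (W := W) (G := G) hρ hg hf hH.le hG hF hF' h.p1 h.p2 h.p3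
  have hs : √(k * H) ≤ √(N z) := Real.sqrt_le_sqrt hN
  have hb' : Big (MP σ τ W G ρ₁) (1 / 4) cP (N z) (N z ^ 2) (N z ^ 3) z := by
    refine ⟨hb.κ, ?_, ?_, hb.ζy, ?_, ?_, hb.wb, hb.wc⟩
    · exact (mul_le_mul_of_nonneg_left hNH h.cP0.le).trans hb.ζ₁
    · exact (mul_le_mul_of_nonneg_left hNH h.cP0.le).trans hb.ζ₂
    · exact (mul_le_mul_of_nonneg_left (pow_le_pow_left₀ hN0.le hNH 2) h.cP0.le).trans hb.w₁
    · exact (mul_le_mul_of_nonneg_left (pow_le_pow_left₀ hN0.le hNH 3) h.cP0.le).trans hb.w₂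
  refine coT1_le hb' hN0 hq hCT h0 h1 (h.b1.trans ?_) (h.b2.trans ?_)
  · exact mul_le_mul_of_nonneg_left hs (by norm_num)
  · exact mul_le_mul_of_nonneg_left hs h.cP0.le

theorem pay_P1_T1' {N : E → ℝ} (h : NumP q C ρ₁ g f cT CT k φ B₀ c₁ C₁ c₂ C₂ B η cP H)
    (hq : 0 ≤ q) (hC : 0 ≤ C) (hcT : 0 ≤ cT) (hk : 0 < k) (hC2 : 0 ≤ C₂)
    (hN : k * H ≤ N z) (hG0 : 0 ≤ G z) (hG : G z ≤ H)
    (hF0 : 0 ≤ σ.F W z) (hF : σ.F W z ≤ φ * N z ^ 2) (hF0' : 0 ≤ τ.F W z)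
    (hF' : τ.F W z ≤ C₂ * H ^ 2) (hom0 : 0 ≤ om z) (hom : om z ≤ B₀) :
    q * (coP σ τ W G om C).dens σ τ v₁ v₂ W a b z ≤ (MT1 cT N).dens σ τ v₁ v₂ W a b z := by
  have hH : 0 < H := by linarith [h.H1]
  have hN0 : 0 < N z := lt_of_lt_of_le (by positivity) hN
  have hHN : H ≤ 1 / k * N z := by
    rw [div_mul_eq_mul_div, one_mul, le_div_iff₀ hk]
    linarith
  have hc : cT * (k * H) ≤ cT * N z := mul_le_mul_of_nonneg_left hN hcT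
  refine pay_P1_T1 (C₁ := 1 / k) (C₂ := C₂ / k ^ 2) hq hC hN0.le hom0 hom hG0 (hG.trans hHN) hF0 hF
    hF0' ?_ (h.d2.trans hc) h.d1 (h.d3.trans hc) (h.d4.trans hc)
  refine hF'.trans ?_
  calc C₂ * H ^ 2 ≤ C₂ * (1 / k * N z) ^ 2 :=
        mul_le_mul_of_nonneg_left (pow_le_pow_left₀ hH.le hHN 2) hC2
    _ = C₂ / k ^ 2 * N z ^ 2 := by field_simp

theorem pay_A_P1 (h : NumP q C ρ₁ g f cT CT k φ B₀ c₁ C₁ c₂ C₂ B η cP H)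
    (hq : 0 ≤ q) (hη : 0 < η) (hB : 0 ≤ B) (hρ : 0 ≤ ρ₁) (hg : 0 ≤ g) (hf : 0 ≤ f)
    (hG : g * H ≤ G z) (hF : 0 ≤ σ.F W z) (hF' : f * H ^ 2 ≤ τ.F W z)
    (hL : Lay σ τ W m χ B C₁ H C₂ C₂ z) :
    q * (coA σ τ W m χ η).dens σ τ v₁ v₂ W a b z ≤ (MP σ τ W G ρ₁).dens σ τ v₁ v₂ W a b z := by
  have hH : 0 < H := by linarith [h.H1]
  have hb := big_P (σ := σ) (τ := τ) (W := W) (G := G) hρ hg hf hH.le hG hF hF' h.p1 h.p2 h.p3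
  have k1 := mul_le_mul_of_nonneg_right h.e3 hH.le
  have k2 := mul_le_mul_of_nonneg_right h.e1 (sq_nonneg H)
  have k0 : q * (6 * C₁ * B / η * H) + q * (144 * η * B * C₂) * H ^ 2 ≤ cP * H ^ 2 := by
    nlinarith
  have k3 : cP * H ^ 2 ≤ cP * H ^ 3 :=
    mul_le_mul_of_nonneg_left (cub h.H1) h.cP0.le
  exact coA_le hb hL hq hη hB (by norm_num) h.e2 k0 (k0.trans k3)

end all

/-- **The numbers can be chosen**: `φ` small (the size of the tubes), then `η` small, then `H`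
large. -/
theorem ex_numP {q C ρ₁ g f cT CT k φ B₀ c₁ C₁ c₂ C₂ B : ℝ} (hq : 0 < q) (hρ : 0 < ρ₁) (hg : 0 < g)
    (hf : 0 < f) (hcT : 0 < cT) (hk : 0 < k) (h1 : 0 < c₁) (h2 : 0 < c₂)
    (hB : 0 ≤ B) (hC2 : 0 ≤ C₂) (hφ : 2 * (q * (C * B₀) * φ) ≤ cT) :
    ∃ cP : ℝ, 0 < cP ∧ ∃ η₀ : ℝ, 0 < η₀ ∧ ∀ η, 0 < η → η ≤ η₀ → ∃ H₀ : ℝ, ∀ H, H₀ ≤ H →
      NumP q C ρ₁ g f cT CT k φ B₀ c₁ C₁ c₂ C₂ B η cP H := by
  obtain ⟨cP, hcP, e1, e2, e3⟩ : ∃ cP : ℝ, 0 < cP ∧ cP ≤ ρ₁ * g ∧ cP ≤ ρ₁ * g ^ 2 ∧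
      cP ≤ ρ₁ * (g * f) :=
    ⟨min (ρ₁ * g) (min (ρ₁ * g ^ 2) (ρ₁ * (g * f))),
      lt_min (by positivity) (lt_min (by positivity) (by positivity)), min_le_left _ _,
      (min_le_right _ _).trans (min_le_left _ _), (min_le_right _ _).trans (min_le_right _ _)⟩
  refine ⟨cP, hcP, cP / (2 * (q * (144 * B * C₂)) + 1), by positivity, fun η hη hη1 => ?_⟩
  have lin : ∀ x y : ℝ, 0 < y → ∃ H₀ : ℝ, ∀ H, H₀ ≤ H → x ≤ y * H := fun x y hy =>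
    ⟨x / y, fun H hH => by rwa [div_le_iff₀ hy, mul_comm] at hH⟩
  have sqr : ∀ x y : ℝ, 0 < y → ∃ H₀ : ℝ, ∀ H, H₀ ≤ H → x ≤ y * √(k * H) := fun x y hy =>
    ⟨(x / y) ^ 2 / k, fun H hH => by
      have h3 : (x / y) ^ 2 ≤ k * H := by rwa [div_le_iff₀ hk, mul_comm] at hH
      have h4 : x / y ≤ √(k * H) := Real.le_sqrt_of_sq_le h3
      rwa [div_le_iff₀ hy, mul_comm] at h4⟩
  obtain ⟨H1, k1⟩ := lin (q * (C * B)) (ρ₁ * g) (by positivity)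
  obtain ⟨H2, k2⟩ := lin (6 * (q * (C * B))) c₁ h1
  obtain ⟨H3, k3⟩ := lin 1 c₂ h2
  obtain ⟨H4, k4⟩ := sqr (q * CT) (1 / 4) (by norm_num)
  obtain ⟨H5, k5⟩ := sqr (q * CT) cP hcP
  obtain ⟨H6, k6⟩ := lin (q * (C * B₀)) (cT * k) (by positivity)
  obtain ⟨H7, k7⟩ := lin (2 * (q * (C * B₀) * (1 / k))) (cT * k) (by positivity)
  obtain ⟨H8, k8⟩ := lin (q * (C * B₀) * (C₂ / k ^ 2)) (cT * k) (by positivity)
  obtain ⟨H9, k9⟩ := lin (q * (32 * η * B)) cP hcP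
  obtain ⟨H10, k10⟩ := lin (2 * (q * (6 * C₁ * B / η))) cP hcP
  refine ⟨max (max (max (max 1 H1) (max H2 H3)) (max (max H4 H5) (max H6 H7)))
    (max H8 (max H9 H10)), fun H hH => ?_⟩
  simp only [max_le_iff] at hH
  obtain ⟨⟨⟨⟨g0, g1⟩, g2, g3⟩, ⟨g4, g5⟩, g6, g7⟩, g8, g9, g10⟩ := hH
  refine ⟨g0, hcP, e1, e2, e3, (k1 H g1).trans (le_of_eq (by ring)), k2 H g2, k3 H g3, k4 H g4,
    k5 H g5, hφ, (k6 H g6).trans (le_of_eq (by ring)), (k7 H g7).trans (le_of_eq (by ring)),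
    (k8 H g8).trans (le_of_eq (by ring)), ?_, k9 H g9, k10 H g10⟩
  have hp : 0 < 2 * (q * (144 * B * C₂)) + 1 := by positivity
  have h3 : η * (2 * (q * (144 * B * C₂)) + 1) ≤ cP := by rwa [le_div_iff₀ hp] at hη1
  nlinarith

end Vale.Agent.P088.R2.H710.PR
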